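import Vale.Agent.P045.R4N2Check

/-!
Ryser's conjecture for 4-partite hypergraphs with matching number at most two.  A vertex of part `i`
with label `a` is the pair `(i, a)`, and an edge is a function `Fin 4 → α`.
-/

namespace Vale.Agent.Results.P045.RankFourNuTwo

open Vale.Agent.P045

/-- Every 4-partite 4-uniform hypergraph with no three pairwise disjoint edges has a vertex cover
with at most six vertices. -/
theorem result {α : Type*} (H : Finset (Fin 4 → α))
    (hν : ∀ M : Finset (Fin 4 → α), M ⊆ H →
      (∀ a ∈ M, ∀ b ∈ M, a ≠ b → ∀ i, a i ≠ b i) → M.card ≤ 2) :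
    ∃ C : Finset (Fin 4 × α), C.card ≤ 6 ∧ ∀ e ∈ H, ∃ i, (i, e i) ∈ C := by
  classical
  by_contra hno
  push Not at hno
  have hG : Good 4 2 6 H := ⟨hν, fun C hC => by
    obtain ⟨e, he, h⟩ := hno C hC
    exact ⟨e, he, h⟩⟩
  obtain ⟨e0, he0, -⟩ := hG.nocover ∅ (by simp)
  refine R4N2.closed_root (α := α) H hG (fun i _ => e0 i) ⟨?_, ?_⟩
  · intro e he
    have : e = 0 := by simpa using he
    subst this
    have : real 9 (fun i (_ : ℕ) => e0 i) 0 = e0 := by
      funext i
      rfl
    rw [this]
    exact he0
  · intro i e he f hf _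
    have h1 : e = 0 := by simpa using he
    have h2 : f = 0 := by simpa using hf
    rw [h1, h2]

end Vale.Agent.Results.P045.RankFourNuTwo
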